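import Mathlib

/-!
# The Hilbert–Smith conjecture for actions preserving a tower of lines

If the group `ℤ_p` of `p`-adic integers has no faithful continuous action on `B`, then it has no
faithful continuous action on `B × ℝᵐ` which respects all the projections
`B × ℝᵐ → B × ℝᵏ`, `k ≤ m`.  In particular no continuous action of `ℤ_p` on `ℝⁿ` by triangular
homeomorphisms (the first `k` coordinates of `g x` depend only on `g` and the first `k` coordinates
of `x`) is faithful, for every `n`.
-/

open Filter Topology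

namespace Vale.Agent.Results.P228.LineTowers

/-- a (jointly) continuous action of the `p`-adic integers on `X` -/
structure ContAction (p : ℕ) [Fact p.Prime] (X : Type*) [TopologicalSpace X] where
  act : ℤ_[p] → X → X
  zero_act : ∀ x, act 0 x = x
  add_act : ∀ g h x, act (g + h) x = act g (act h x)
  cont : Continuous fun q : ℤ_[p] × X => act q.1 q.2

/-- only the identity acts trivially -/
def ContAction.Faithful {p : ℕ} [Fact p.Prime] {X : Type*} [TopologicalSpace X]
    (A : ContAction p X) : Prop :=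
  ∀ g, (∀ x, A.act g x = x) → g = 0

/-- `x` and `y` in `B × ℝᵐ` have the same image in `B × ℝᵏ` (first `k` coordinates) -/
def SameUpTo {B : Type*} {m : ℕ} (k : ℕ) (x y : B × (Fin m → ℝ)) : Prop :=
  x.1 = y.1 ∧ ∀ i : Fin m, (i : ℕ) < k → x.2 i = y.2 i

/-- the action maps fibres of the projection `B × ℝᵐ → B × ℝᵏ` to fibres, for every `k ≤ m` -/
def RespectsTower {p : ℕ} [Fact p.Prime] {B : Type*} [TopologicalSpace B] {m : ℕ}
    (A : ContAction p (B × (Fin m → ℝ))) : Prop :=
  ∀ k ≤ m, ∀ g x y, SameUpTo k x y → SameUpTo k (A.act g x) (A.act g y)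

/-- iterates of an increasing map which come back arbitrarily close to every point are trivial -/
theorem order_trivial {α : Type*} [LinearOrder α] [TopologicalSpace α] [OrderClosedTopology α]
    {p : ℕ} (hp : 1 ≤ p) {τ : ℕ → α → α} (hadd : ∀ m n t, τ (m + n) t = τ m (τ n t))
    (h2 : StrictMono (τ 2))
    (hlim : ∀ t, Tendsto (fun j : ℕ => τ (2 * p ^ j) t) atTop (𝓝 t)) (t : α) : τ 2 t = t := by
  have hmono : ∀ n, 1 ≤ n → StrictMono (τ (2 * n)) := by
    intro n hn
    induction n, hn using Nat.le_induction with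
    | base => exact h2
    | succ n _ ih =>
      have : τ (2 * (n + 1)) = τ (2 * n) ∘ τ 2 := by
        funext t
        have := hadd (2 * n) 2 t
        rw [show 2 * (n + 1) = 2 * n + 2 by ring, this]
        rfl
      rw [this]
      exact ih.comp h2
  have hpow : ∀ j : ℕ, 1 ≤ p ^ j := fun j => Nat.one_le_pow _ _ hp
  rcases lt_trichotomy (τ 2 t) t with h | h | h
  · exfalso
    have hn : ∀ n, 1 ≤ n → τ (2 * n) t ≤ τ 2 t := by
      intro n hn
      induction n, hn using Nat.le_induction with
      | base => exact le_refl _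
      | succ n hn ih =>
        rw [show 2 * (n + 1) = 2 * n + 2 by ring, hadd]
        exact ((hmono n hn).monotone h.le).trans ih
    have := le_of_tendsto (hlim t) (Eventually.of_forall fun j => hn _ (hpow j))
    exact absurd h (not_lt.2 this)
  · exact h
  · exfalso
    have hn : ∀ n, 1 ≤ n → τ 2 t ≤ τ (2 * n) t := by
      intro n hn
      induction n, hn using Nat.le_induction with
      | base => exact le_refl _
      | succ n hn ih =>
        rw [show 2 * (n + 1) = 2 * n + 2 by ring, hadd]
        exact ih.trans ((hmono n hn).monotone h.le)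
    have := ge_of_tendsto (hlim t) (Eventually.of_forall fun j => hn _ (hpow j))
    exact absurd h (not_lt.2 this)

/-- a one-parameter family of injective continuous maps of the line that comes back close to the
identity is trivial (up to an element of order two) -/
theorem line_trivial {p : ℕ} (hp : 1 ≤ p) {τ : ℕ → ℝ → ℝ}
    (hadd : ∀ m n t, τ (m + n) t = τ m (τ n t)) (hcont : Continuous (τ 1))
    (hinj : Function.Injective (τ 1))
    (hlim : ∀ t, Tendsto (fun j : ℕ => τ (2 * p ^ j) t) atTop (𝓝 t)) (t : ℝ) : τ 2 t = t := by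
  refine order_trivial hp hadd ?_ hlim t
  have h11 : τ 2 = τ 1 ∘ τ 1 := by
    funext t
    exact hadd 1 1 t
  rw [h11]
  rcases hcont.strictMono_of_inj hinj with h | h
  · exact h.comp h
  · exact h.comp h

theorem mono_or_anti {I : Set ℝ} (hI : I.OrdConnected) {f : I → I} (hf : Continuous f)
    (hinj : Function.Injective f) : StrictMono f ∨ StrictAnti f := by
  rcases isEmpty_or_nonempty I with h | ⟨⟨x0⟩⟩
  · left
    intro a
    exact isEmptyElim a
  · have : Inhabited I := ⟨x0⟩
    have := hI
    let := ordConnectedSubsetConditionallyCompleteLinearOrder I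
    exact hf.strictMono_of_inj hinj

theorem tendsto_nsmul {p : ℕ} [Fact p.Prime] (g : ℤ_[p]) :
    Tendsto (fun j : ℕ => (2 * p ^ j) • g) atTop (𝓝 0) := by
  have h1 : Tendsto (fun j : ℕ => ((p : ℤ_[p]) ^ j)) atTop (𝓝 0) := by
    apply tendsto_pow_atTop_nhds_zero_of_norm_lt_one
    rw [PadicInt.norm_p]
    have : (1 : ℝ) < p := by exact_mod_cast (Fact.out : p.Prime).one_lt
    exact inv_lt_one_of_one_lt₀ this
  have h2 := (h1.const_mul 2).mul_const g
  simp only [mul_zero, zero_mul] at h2
  refine h2.congr fun j => ?_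
  rw [nsmul_eq_mul]
  push_cast
  ring

/-- one step: an equivariant map with interval fibres -/
theorem step {p : ℕ} [Fact p.Prime] {X Y : Type*} [TopologicalSpace X] [TopologicalSpace Y]
    (A : ContAction p X) (A₀ : ContAction p Y) (π : X → Y)
    (hπ : ∀ g x, π (A.act g x) = A₀.act g (π x))
    (hfib : ∀ y, ∃ I : Set ℝ, I.OrdConnected ∧ Nonempty ((π ⁻¹' {y} : Set X) ≃ₜ I))
    (hA₀ : ¬ A₀.Faithful) : ¬ A.Faithful := by
  intro hf
  unfold ContAction.Faithful at hA₀
  push Not at hA₀
  obtain ⟨g, hg, hg0⟩ := hA₀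
  apply hg0
  have hn : ∀ (n : ℕ) (y : Y), A₀.act (n • g) y = y := by
    intro n
    induction n with
    | zero =>
      intro y
      rw [zero_smul, A₀.zero_act]
    | succ n ih =>
      intro y
      rw [succ_nsmul, A₀.add_act, hg, ih]
  have hmem : ∀ (n : ℕ) (y : Y) (x : X), x ∈ (π ⁻¹' {y} : Set X) →
      A.act (n • g) x ∈ (π ⁻¹' {y} : Set X) := by
    intro n y x hx
    have hx' : π x = y := hx
    change π (A.act (n • g) x) = y
    rw [hπ, hn, hx']
  have htriv : ∀ x, A.act (2 • g) x = x := by
    intro x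
    obtain ⟨I, hI, ⟨e⟩⟩ := hfib (π x)
    let T : ℕ → (π ⁻¹' {π x} : Set X) → (π ⁻¹' {π x} : Set X) := fun n s =>
      ⟨A.act (n • g) s.1, hmem n _ _ s.2⟩
    have hTc : ∀ n, Continuous (T n) := fun n =>
      (A.cont.comp (continuous_const.prodMk continuous_subtype_val)).subtype_mk _
    have hTadd : ∀ a b s, T (a + b) s = T a (T b s) := by
      intro a b s
      apply Subtype.ext
      change A.act ((a + b) • g) s.1 = A.act (a • g) (A.act (b • g) s.1)
      rw [add_smul, A.add_act]
    have hTinj : Function.Injective (T 1) := by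
      intro s s' h
      have h1 : A.act (1 • g) s.1 = A.act (1 • g) s'.1 := congrArg Subtype.val h
      have h2 := congrArg (A.act (-(1 • g))) h1
      rw [← A.add_act, ← A.add_act, neg_add_cancel, A.zero_act, A.zero_act] at h2
      exact Subtype.ext h2
    let τ : ℕ → I → I := fun n t => e (T n (e.symm t))
    have hτadd : ∀ a b t, τ (a + b) t = τ a (τ b t) := by
      intro a b t
      change e (T (a + b) (e.symm t)) = e (T a (e.symm (e (T b (e.symm t)))))
      rw [e.symm_apply_apply, hTadd]
    have hτc : Continuous (τ 1) := e.continuous.comp ((hTc 1).comp e.symm.continuous)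
    have hτinj : Function.Injective (τ 1) :=
      e.injective.comp (hTinj.comp e.symm.injective)
    have h2 : StrictMono (τ 2) := by
      have h11 : τ 2 = τ 1 ∘ τ 1 := by
        funext t
        exact hτadd 1 1 t
      rw [h11]
      rcases mono_or_anti hI hτc hτinj with h | h
      · exact h.comp h
      · exact h.comp h
    have hlim : ∀ t, Tendsto (fun j : ℕ => τ (2 * p ^ j) t) atTop (𝓝 t) := by
      intro t
      have h1 : Tendsto (fun j : ℕ => A.act ((2 * p ^ j) • g) (e.symm t).1) atTop
          (𝓝 (A.act 0 (e.symm t).1)) := by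
        have hc : Continuous fun a : ℤ_[p] => A.act a (e.symm t).1 :=
          A.cont.comp (continuous_id.prodMk continuous_const)
        exact (hc.tendsto 0).comp (tendsto_nsmul g)
      rw [A.zero_act] at h1
      have h3 : Tendsto (fun j : ℕ => T (2 * p ^ j) (e.symm t)) atTop (𝓝 (e.symm t)) :=
        tendsto_subtype_rng.2 h1
      have h4 := (e.continuous.tendsto (e.symm t)).comp h3
      rw [e.apply_symm_apply] at h4
      exact h4
    have h3 := order_trivial (Fact.out : p.Prime).one_lt.le hτadd h2 hlim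
      (e ⟨x, rfl⟩)
    have h4 : T 2 ⟨x, rfl⟩ = ⟨x, rfl⟩ := by
      have h5 : e (T 2 (e.symm (e ⟨x, rfl⟩))) = e ⟨x, rfl⟩ := h3
      rw [e.symm_apply_apply] at h5
      exact e.injective h5
    exact congrArg Subtype.val h4
  have h2 := hf _ htriv
  rw [nsmul_eq_mul] at h2
  exact (mul_eq_zero.1 h2).resolve_left (by norm_num)

section

variable {p : ℕ} [Fact p.Prime] {B : Type*} [TopologicalSpace B] {m : ℕ}
  {A : ContAction p (B × (Fin m → ℝ))}

theorem nsmul_same {k : ℕ} {g : ℤ_[p]} (hg : ∀ x, SameUpTo k (A.act g x) x) (n : ℕ) :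
    ∀ x, SameUpTo k (A.act (n • g) x) x := by
  induction n with
  | zero =>
    intro x
    rw [zero_smul, A.zero_act]
    exact ⟨rfl, fun _ _ => rfl⟩
  | succ n ih =>
    intro x
    rw [succ_nsmul, A.add_act]
    have h1 := ih (A.act g x)
    have h2 := hg x
    exact ⟨h1.1.trans h2.1, fun i hi => (h1.2 i hi).trans (h2.2 i hi)⟩

theorem climb (hT : RespectsTower A) {k : ℕ} (hk : k < m) {g : ℤ_[p]} (hg0 : g ≠ 0)
    (hg : ∀ x, SameUpTo k (A.act g x) x) :
    ∃ g' : ℤ_[p], g' ≠ 0 ∧ ∀ x, SameUpTo (k + 1) (A.act g' x) x := by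
  refine ⟨2 • g, ?_, ?_⟩
  · rw [nsmul_eq_mul]
    exact mul_ne_zero (by norm_num) hg0
  intro x
  let i : Fin m := ⟨k, hk⟩
  have hn := nsmul_same hg
  let z : ℝ → B × (Fin m → ℝ) := fun t => (x.1, Function.update x.2 i t)
  have hzc : Continuous z := continuous_const.prodMk (continuous_const.update i continuous_id)
  let τ : ℕ → ℝ → ℝ := fun n t => (A.act (n • g) (z t)).2 i
  -- the image of `z t` is `z (τ n t)` up to level `k + 1`
  have hz : ∀ n t, SameUpTo (k + 1) (A.act (n • g) (z t)) (z (τ n t)) := by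
    intro n t
    have h1 := hn n (z t)
    refine ⟨h1.1, fun j hj => ?_⟩
    by_cases hji : j = i
    · subst hji
      simp [z, τ]
    · have hjk : (j : ℕ) < k := by
        have : (j : ℕ) ≠ k := fun h => hji (Fin.ext h)
        omega
      rw [h1.2 j hjk]
      simp [z, hji]
  have hadd : ∀ a b t, τ (a + b) t = τ a (τ b t) := by
    intro a b t
    have h1 : A.act ((a + b) • g) (z t) = A.act (a • g) (A.act (b • g) (z t)) := by
      rw [add_smul, A.add_act]
    have h2 := hT (k + 1) hk (a • g) _ _ (hz b t)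
    have h3 := h2.2 i (Nat.lt_succ_self k)
    change (A.act ((a + b) • g) (z t)).2 i = (A.act (a • g) (z (τ b t))).2 i
    rw [h1]
    exact h3
  have hact : ∀ n, Continuous (τ n) := by
    intro n
    have h1 : Continuous fun t => A.act (n • g) (z t) :=
      A.cont.comp (continuous_const.prodMk hzc)
    exact (continuous_apply i).comp (continuous_snd.comp h1)
  have hinj : Function.Injective (τ 1) := by
    intro t t' htt'
    have h1 := hz 1 t
    have h2 := hz 1 t'
    rw [← htt'] at h2
    have h3 : SameUpTo (k + 1) (A.act (1 • g) (z t)) (A.act (1 • g) (z t')) :=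
      ⟨h1.1.trans h2.1.symm, fun j hj => (h1.2 j hj).trans (h2.2 j hj).symm⟩
    have h4 := hT (k + 1) hk (-(1 • g)) _ _ h3
    rw [← A.add_act, ← A.add_act, neg_add_cancel, A.zero_act, A.zero_act] at h4
    have h5 := h4.2 i (Nat.lt_succ_self k)
    simpa [z] using h5
  have hlim : ∀ t, Tendsto (fun j : ℕ => τ (2 * p ^ j) t) atTop (𝓝 t) := by
    intro t
    have h1 : Tendsto (fun j : ℕ => A.act ((2 * p ^ j) • g) (z t)) atTop
        (𝓝 (A.act 0 (z t))) := by
      have hc : Continuous fun a : ℤ_[p] => A.act a (z t) :=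
        A.cont.comp (continuous_id.prodMk continuous_const)
      exact (hc.tendsto 0).comp (tendsto_nsmul g)
    rw [A.zero_act] at h1
    have h2 := (((continuous_apply i).comp continuous_snd).tendsto (z t)).comp h1
    have h3 : ((fun f : Fin m → ℝ => f i) ∘ Prod.snd) (z t) = t := by
      simp [z]
    rw [h3] at h2
    exact h2
  have h2 := line_trivial (Fact.out : p.Prime).one_lt.le hadd (hact 1) hinj hlim (x.2 i)
  have hzx : z (x.2 i) = x := by
    simp [z]
  refine ⟨(hn 2 x).1, fun j hj => ?_⟩
  by_cases hji : j = i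
  · subst hji
    have h3 : (A.act (2 • g) (z (x.2 i))).2 i = x.2 i := h2
    rw [hzx] at h3
    exact h3
  · have hjk : (j : ℕ) < k := by
      have : (j : ℕ) ≠ k := fun h => hji (Fin.ext h)
      omega
    exact (hn 2 x).2 j hjk

theorem not_faithful (hB : ∀ A₀ : ContAction p B, ¬ A₀.Faithful) (hT : RespectsTower A) :
    ¬ A.Faithful := by
  intro hf
  -- the induced action on `B`
  have hfst : ∀ g x, (A.act g x).1 = (A.act g (x.1, 0)).1 := fun g x =>
    (hT 0 (Nat.zero_le _) g x (x.1, 0) ⟨rfl, fun i hi => absurd hi (Nat.not_lt_zero _)⟩).1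
  let A₀ : ContAction p B :=
    { act := fun g b => (A.act g (b, 0)).1
      zero_act := fun b => by rw [A.zero_act]
      add_act := fun g h b => by
        rw [A.add_act]
        exact hfst g (A.act h (b, 0))
      cont := by
        have h1 : Continuous fun q : ℤ_[p] × B => ((q.1, ((q.2, 0) : B × (Fin m → ℝ))) :
            ℤ_[p] × (B × (Fin m → ℝ))) := by fun_prop
        exact continuous_fst.comp (A.cont.comp h1) }
  have hbase : ∃ g : ℤ_[p], g ≠ 0 ∧ ∀ x, SameUpTo 0 (A.act g x) x := by
    by_contra hcon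
    push Not at hcon
    apply hB A₀
    intro g hg
    by_contra hg0
    obtain ⟨x, hx⟩ := hcon g hg0
    apply hx
    refine ⟨?_, fun i hi => absurd hi (Nat.not_lt_zero _)⟩
    rw [hfst]
    exact hg x.1
  have hall : ∀ k ≤ m, ∃ g : ℤ_[p], g ≠ 0 ∧ ∀ x, SameUpTo k (A.act g x) x := by
    intro k
    induction k with
    | zero => exact fun _ => hbase
    | succ k ih =>
      intro hk
      obtain ⟨g, hg0, hg⟩ := ih (by omega)
      exact climb hT hk hg0 hg
  obtain ⟨g, hg0, hg⟩ := hall m le_rfl
  apply hg0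
  apply hf
  intro x
  exact Prod.ext (hg x).1 (funext fun i => (hg x).2 i i.2)

end

/-- the first `k` coordinates of `A.act g x` depend only on `g` and the first `k` coordinates of
`x`, for every `k` -/
def Triangular {p : ℕ} [Fact p.Prime] {F : Type*} [TopologicalSpace F] {n : ℕ}
    (A : ContAction p (Fin n → F)) : Prop :=
  ∀ (k : ℕ) (g : ℤ_[p]) (x y : Fin n → F), (∀ i : Fin n, (i : ℕ) < k → x i = y i) →
    ∀ i : Fin n, (i : ℕ) < k → A.act g x i = A.act g y i

section

variable {p : ℕ} [Fact p.Prime] {n : ℕ}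

theorem point_not_faithful (A : ContAction p Unit) : ¬ A.Faithful := by
  intro h
  have := h 1 (fun x => Subsingleton.elim _ _)
  exact one_ne_zero this

theorem euclidean {A : ContAction p (Fin n → ℝ)} (hT : Triangular A) : ¬ A.Faithful := by
  let A' : ContAction p (Unit × (Fin n → ℝ)) :=
    { act := fun g x => (x.1, A.act g x.2)
      zero_act := fun x => by rw [A.zero_act]
      add_act := fun g h x => by rw [A.add_act]
      cont := by
        have h1 : Continuous fun q : ℤ_[p] × (Unit × (Fin n → ℝ)) => A.act q.1 q.2.2 :=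
          A.cont.comp (by fun_prop : Continuous fun q : ℤ_[p] × (Unit × (Fin n → ℝ)) =>
            (q.1, q.2.2))
        exact (continuous_fst.comp continuous_snd).prodMk h1 }
  have hT' : RespectsTower A' := fun k _ g x y hxy => ⟨hxy.1, hT k g x.2 y.2 hxy.2⟩
  intro hf
  apply not_faithful (A := A') point_not_faithful hT'
  intro g hg
  apply hf
  intro x
  have := hg ((), x)
  exact (Prod.ext_iff.1 this).2

/-- the representative in `[-1/2, 1/2)` -/
noncomputable def rep (c : UnitAddCircle) : ℝ := (AddCircle.equivIco 1 (-1 / 2) c : ℝ)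

theorem coe_rep (c : UnitAddCircle) : ((rep c : ℝ) : UnitAddCircle) = c :=
  AddCircle.coe_equivIco

theorem rep_coe {t : ℝ} (h1 : -1 / 2 ≤ t) (h2 : t < 1 / 2) : rep (t : UnitAddCircle) = t :=
  AddCircle.equivIco_coe_of_mem ⟨h1, by linarith⟩

theorem abs_rep (c : UnitAddCircle) : |rep c| = ‖c‖ := by
  have hm := (AddCircle.equivIco 1 (-1 / 2) c).2
  have h1 : -1 / 2 ≤ rep c := hm.1
  have h2 : rep c < -1 / 2 + 1 := hm.2
  have h3 : |rep c| ≤ |(1 : ℝ)| / 2 := by
    rw [abs_one, abs_le]
    constructor <;> linarith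
  have h4 := (AddCircle.norm_coe_eq_abs_iff (p := 1) (x := rep c) one_ne_zero).2 h3
  rw [← h4, coe_rep]

theorem rep_add {c d : UnitAddCircle} (hc : ‖c‖ < 1 / 4) (hd : ‖d‖ < 1 / 4) :
    rep (c + d) = rep c + rep d := by
  rw [← abs_rep, abs_lt] at hc hd
  have h : ((rep c + rep d : ℝ) : UnitAddCircle) = c + d := by
    rw [AddCircle.coe_add, coe_rep, coe_rep]
  rw [← h]
  exact rep_coe (by linarith [hc.1, hd.1]) (by linarith [hc.2, hd.2])

theorem continuousAt_rep {c : UnitAddCircle} (hc : ‖c‖ < 1 / 4) : ContinuousAt rep c := by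
  have hne : c ≠ ((-1 / 2 : ℝ) : UnitAddCircle) := by
    rintro rfl
    have h3 : |(-1 / 2 : ℝ)| ≤ |(1 : ℝ)| / 2 := by
      norm_num [abs_div]
    rw [(AddCircle.norm_coe_eq_abs_iff (p := 1) (x := -1 / 2) one_ne_zero).2 h3] at hc
    norm_num [abs_div] at hc
  exact (continuous_subtype_val.continuousAt).comp (AddCircle.continuousAt_equivIco 1 _ hne)

theorem small (A : ContAction p (Fin n → UnitAddCircle)) :
    ∃ N : ℕ, ∀ g x i, ‖A.act ((p : ℤ_[p]) ^ N * g) x i - x i‖ < 1 / 4 := by
  have h1 : ∀ x : Fin n → UnitAddCircle, ∀ᶠ q : ℤ_[p] × (Fin n → UnitAddCircle) in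
      𝓝 0 ×ˢ 𝓝 x, ∀ i, ‖A.act q.1 q.2 i - q.2 i‖ < 1 / 4 := by
    intro x
    rw [← nhds_prod_eq, Filter.eventually_all]
    intro i
    have hc : Continuous fun q : ℤ_[p] × (Fin n → UnitAddCircle) =>
        ‖A.act q.1 q.2 i - q.2 i‖ :=
      (((continuous_apply i).comp A.cont).sub ((continuous_apply i).comp continuous_snd)).norm
    have h0 : ‖A.act (0, x).1 (0, x).2 i - (0, x).2 i‖ < 1 / 4 := by
      simp [A.zero_act]
    exact (hc.tendsto (0, x)).eventually_lt_const h0
  have h2 := (isCompact_univ (X := Fin n → UnitAddCircle)).eventually_forall_of_forall_eventually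
    (x₀ := (0 : ℤ_[p])) (P := fun g x => ∀ i, ‖A.act g x i - x i‖ < 1 / 4)
    (fun x _ => by
      have := h1 x
      rwa [← nhds_prod_eq] at this)
  obtain ⟨ε, hε, hball⟩ := Metric.eventually_nhds_iff.1 h2
  have hpn : (1 : ℝ) < p := by exact_mod_cast (Fact.out : p.Prime).one_lt
  obtain ⟨N, hN⟩ := exists_pow_lt_of_lt_one hε (inv_lt_one_of_one_lt₀ hpn)
  refine ⟨N, fun g x i => hball ?_ x (Set.mem_univ x) i⟩
  rw [dist_zero_right, norm_mul, norm_pow, PadicInt.norm_p]
  calc ((p : ℝ)⁻¹) ^ N * ‖g‖ ≤ ((p : ℝ)⁻¹) ^ N * 1 :=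
        mul_le_mul_of_nonneg_left (PadicInt.norm_le_one g) (by positivity)
    _ < ε := by rw [mul_one]; exact hN

theorem torus {A : ContAction p (Fin n → UnitAddCircle)} (hT : Triangular A) : ¬ A.Faithful := by
  obtain ⟨N, hN⟩ := small A
  let q : ℤ_[p] := (p : ℤ_[p]) ^ N
  let pr : (Fin n → ℝ) → (Fin n → UnitAddCircle) := fun s i => (s i : UnitAddCircle)
  have hpr : Continuous pr :=
    continuous_pi fun i => (AddCircle.continuous_mk' 1).comp (continuous_apply i)
  let δ : ℤ_[p] → (Fin n → UnitAddCircle) → Fin n → ℝ := fun g x i =>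
    rep (A.act (q * g) x i - x i)
  have hlift : ∀ g s, pr (fun i => s i + δ g (pr s) i) = A.act (q * g) (pr s) := by
    intro g s
    funext i
    change ((s i + rep (A.act (q * g) (pr s) i - pr s i) : ℝ) : UnitAddCircle) = _
    rw [AddCircle.coe_add, coe_rep]
    change pr s i + (A.act (q * g) (pr s) i - pr s i) = _
    abel
  have hδ0 : ∀ x i, δ 0 x i = 0 := by
    intro x i
    change rep (A.act (q * 0) x i - x i) = 0
    rw [mul_zero, A.zero_act, sub_self]
    have := rep_coe (t := 0) (by norm_num) (by norm_num)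
    simpa using this
  have hδadd : ∀ g h x i, δ (g + h) x i = δ h x i + δ g (A.act (q * h) x) i := by
    intro g h x i
    change rep (A.act (q * (g + h)) x i - x i) =
      rep (A.act (q * h) x i - x i) +
        rep (A.act (q * g) (A.act (q * h) x) i - A.act (q * h) x i)
    rw [← rep_add (hN h x i) (hN g _ i), mul_add, A.add_act]
    congr 1
    abel
  let A' : ContAction p (Fin n → ℝ) :=
    { act := fun g s i => s i + δ g (pr s) i
      zero_act := fun s => by
        funext i
        rw [hδ0, add_zero]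
      add_act := fun g h s => by
        funext i
        rw [hδadd, hlift h s]
        ring
      cont := by
        refine continuous_pi fun i => ?_
        have h1 : Continuous fun r : ℤ_[p] × (Fin n → ℝ) =>
            A.act (q * r.1) (pr r.2) i - pr r.2 i := by
          have h2 : Continuous fun r : ℤ_[p] × (Fin n → ℝ) => (q * r.1, pr r.2) :=
            (continuous_const.mul continuous_fst).prodMk (hpr.comp continuous_snd)
          exact ((continuous_apply i).comp (A.cont.comp h2)).sub
            ((continuous_apply i).comp (hpr.comp continuous_snd))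
        have h3 : Continuous fun r : ℤ_[p] × (Fin n → ℝ) =>
            rep (A.act (q * r.1) (pr r.2) i - pr r.2 i) := by
          rw [continuous_iff_continuousAt]
          intro r
          exact ContinuousAt.comp (f := fun r : ℤ_[p] × (Fin n → ℝ) =>
            A.act (q * r.1) (pr r.2) i - pr r.2 i) (continuousAt_rep (hN r.1 _ i))
            h1.continuousAt
        exact ((continuous_apply i).comp continuous_snd).add h3 }
  have hT' : Triangular A' := by
    intro k g s t hst i hi
    have h1 : ∀ j : Fin n, (j : ℕ) < k → pr s j = pr t j := fun j hj => by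
      change ((s j : ℝ) : UnitAddCircle) = ((t j : ℝ) : UnitAddCircle)
      rw [hst j hj]
    have h2 := hT k (q * g) (pr s) (pr t) h1 i hi
    change s i + rep (A.act (q * g) (pr s) i - pr s i) =
      t i + rep (A.act (q * g) (pr t) i - pr t i)
    rw [hst i hi, h2, h1 i hi]
  intro hf
  apply euclidean hT'
  intro g hg
  have hq : q ≠ 0 := pow_ne_zero _ (by
    exact_mod_cast (Fact.out : p.Prime).ne_zero)
  have h0 : q * g = 0 := by
    apply hf
    intro x
    obtain ⟨s, hs⟩ : ∃ s, pr s = x := ⟨fun i => rep (x i), funext fun i => coe_rep (x i)⟩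
    have h1 := hlift g s
    have h2 : (fun i => s i + δ g (pr s) i) = s := hg s
    rw [h2, hs] at h1
    exact h1.symm
  exact (mul_eq_zero.1 h0).resolve_left hq

end

/-- The main result.
(1) If `π : X → Y` is an equivariant map between continuous `ℤ_p`-actions, every fibre of `π` is
homeomorphic to an interval of the real line, and the action on `Y` is not faithful, then the action
on `X` is not faithful.
(2) If `ℤ_p` has no faithful continuous action on `B`, then no continuous action of `ℤ_p` on
`B × ℝᵐ` which respects the tower `B × ℝᵐ → ⋯ → B × ℝ → B` is faithful.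
(3), (4) No continuous action of `ℤ_p` on `ℝⁿ`, or on the torus `(ℝ/ℤ)ⁿ`, by triangular
homeomorphisms is faithful. -/
theorem result (p : ℕ) [Fact p.Prime] :
    (∀ (X Y : Type) [TopologicalSpace X] [TopologicalSpace Y] (A : ContAction p X)
      (A₀ : ContAction p Y) (π : X → Y), (∀ g x, π (A.act g x) = A₀.act g (π x)) →
      (∀ y, ∃ I : Set ℝ, I.OrdConnected ∧ Nonempty ((π ⁻¹' {y} : Set X) ≃ₜ I)) →
      ¬ A₀.Faithful → ¬ A.Faithful) ∧
    (∀ (B : Type) [TopologicalSpace B], (∀ A₀ : ContAction p B, ¬ A₀.Faithful) →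
      ∀ (m : ℕ) (A : ContAction p (B × (Fin m → ℝ))), RespectsTower A → ¬ A.Faithful) ∧
    (∀ (n : ℕ) (A : ContAction p (Fin n → ℝ)), Triangular A → ¬ A.Faithful) ∧
    (∀ (n : ℕ) (A : ContAction p (Fin n → UnitAddCircle)), Triangular A → ¬ A.Faithful) :=
  ⟨fun _ _ _ _ A A₀ π hπ hfib hA₀ => step A A₀ π hπ hfib hA₀,
    fun _ _ hB _ _ hT => not_faithful hB hT, fun _ _ hT => euclidean hT,
    fun _ _ hT => torus hT⟩

end Vale.Agent.Results.P228.LineTowers
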